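import Vale.Agent.P062.Defs
import Vale.Agent.P062.A.Main

namespace Vale.Agent.Results.P062.MakerWins

open Vale.Agent.P062

/-- Maker has a strategy for the Snaky achievement game on the initially empty board `ℤ²`, with no
handicap, that wins within 21 moves against every legal play of Breaker. -/
theorem result :
    ∃ σ : Finset (ℤ × ℤ) → Finset (ℤ × ℤ) → ℤ × ℤ,
      (∀ M B, σ M B ∉ M ∧ σ M B ∉ B) ∧
      ∀ b : ℕ → ℤ × ℤ, (∀ k, b k ∉ makerCells σ b (k + 1) ∧ b k ∉ breakerCells b k) →
        ∃ k ≤ 21, OwnsCopy (makerCells σ b k) :=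
  strategy_of_W A.win

end Vale.Agent.Results.P062.MakerWins
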